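import Vale.Agent.H61.P228.Line

/-!
# P228 (Hilbert-Smith): no element of a faithful p-adic action preserves a covering family of lines

`act` is a continuous action of the additive group of `p`-adic integers on an arbitrary
topological space `M`.  If an element `a` maps each member of a family of embedded real lines
covering `M` into itself, then `a + a` acts as the identity; hence `a = 0` if the action is
faithful.
-/

namespace Vale.Agent.Results.P228.A_InvariantLines

theorem result (p : ℕ) [Fact p.Prime] (M : Type*) [TopologicalSpace M]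
    (act : ℤ_[p] → M → M)
    (h0 : ∀ x, act 0 x = x) (hadd : ∀ a b x, act (a + b) x = act a (act b x))
    (hcont : Continuous (fun z : ℤ_[p] × M => act z.1 z.2))
    (a : ℤ_[p])
    (hlines : ∀ x : M, ∃ γ : ℝ → M, Topology.IsEmbedding γ ∧ x ∈ Set.range γ ∧
      Set.MapsTo (act a) (Set.range γ) (Set.range γ)) :
    (∀ x, act (a + a) x = x) ∧
      ((∀ b : ℤ_[p], (∀ x, act b x = x) → b = 0) → a = 0) := by
  have h1 : ∀ x, act (a + a) x = x := by
    intro x
    obtain ⟨γ, hγ, ⟨t, rfl⟩, hmaps⟩ := hlines x
    exact Vale.Agent.H61.P228.invariant_line_trivial p M act h0 hadd hcont a γ hγ hmaps t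
  refine ⟨h1, fun hfaith => ?_⟩
  have h2 : a + a = 0 := hfaith (a + a) h1
  have h3 : (2 : ℤ_[p]) * a = 0 := by rw [two_mul]; exact h2
  rcases mul_eq_zero.mp h3 with h | h
  · exact absurd h two_ne_zero
  · exact h

end Vale.Agent.Results.P228.A_InvariantLines
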