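import Vale.Agent.H61.P228.Line

/-!
# P228 (Hilbert-Smith): triangular actions of the p-adic integers on `ℝ^n` are never faithful

`act` is a continuous action of the additive group of `p`-adic integers on `ℝ^n` such that
every group element acts by a triangular map (the `i`-th coordinate of the image depends only
on the coordinates `j ≤ i` of the point).  Then `2^n ℤ_p` acts trivially, so some nonzero
element acts as the identity.
-/

namespace Vale.Agent.Results.P228.B_Triangular

theorem result (p : ℕ) [Fact p.Prime] (n : ℕ)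
    (act : ℤ_[p] → (Fin n → ℝ) → (Fin n → ℝ))
    (h0 : ∀ x, act 0 x = x) (hadd : ∀ a b x, act (a + b) x = act a (act b x))
    (hcont : Continuous (fun q : ℤ_[p] × (Fin n → ℝ) => act q.1 q.2))
    (htri : ∀ (a : ℤ_[p]) (x y : Fin n → ℝ) (i : Fin n),
      (∀ j, j ≤ i → x j = y j) → act a x i = act a y i) :
    (∀ (a : ℤ_[p]) (x : Fin n → ℝ), act ((2 : ℤ_[p]) ^ n * a) x = x) ∧
      ∃ a : ℤ_[p], a ≠ 0 ∧ ∀ x : Fin n → ℝ, act a x = x := by
  have h1 := Vale.Agent.H61.P228.triangular_action_trivial p n act h0 hadd hcont htri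
  refine ⟨h1, (2 : ℤ_[p]) ^ n, pow_ne_zero n two_ne_zero, fun x => ?_⟩
  have := h1 1 x
  rwa [mul_one] at this

end Vale.Agent.Results.P228.B_Triangular
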