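import Vale.Agent.H61.P228.Line

/-!
# P228 (Hilbert-Smith): the two classes of actions of the p-adic integers settled here

`act` is a continuous action of the additive group `ℤ_p` of `p`-adic integers
(`act 0 = id`, `act (a + b) = act a ∘ act b`, jointly continuous).

1. On an arbitrary topological space `M`: if every point of `M` lies on the image of a topological
   embedding of the real line that `act a` maps into itself, then `a + a` acts as the identity,
   and `a = 0` when the action is faithful.
2. On `ℝ^n`: if every group element acts by a triangular map (the `i`-th coordinate of the image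
   depends only on the coordinates `j ≤ i` of the point), then `2^n ℤ_p` acts trivially, so some
   nonzero element acts as the identity.
-/

namespace Vale.Agent.Results.P228.C_CombinedActions

theorem result (p : ℕ) [Fact p.Prime] (M : Type*) [TopologicalSpace M] :
    (∀ act : ℤ_[p] → M → M,
      (∀ x, act 0 x = x) → (∀ a b x, act (a + b) x = act a (act b x)) →
      Continuous (fun z : ℤ_[p] × M => act z.1 z.2) →
      ∀ a : ℤ_[p],
        (∀ x : M, ∃ γ : ℝ → M, Topology.IsEmbedding γ ∧ x ∈ Set.range γ ∧
          Set.MapsTo (act a) (Set.range γ) (Set.range γ)) →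
        (∀ x, act (a + a) x = x) ∧
          ((∀ b : ℤ_[p], (∀ x, act b x = x) → b = 0) → a = 0)) ∧
    (∀ (n : ℕ) (act : ℤ_[p] → (Fin n → ℝ) → (Fin n → ℝ)),
      (∀ x, act 0 x = x) → (∀ a b x, act (a + b) x = act a (act b x)) →
      Continuous (fun q : ℤ_[p] × (Fin n → ℝ) => act q.1 q.2) →
      (∀ (a : ℤ_[p]) (x y : Fin n → ℝ) (i : Fin n),
        (∀ j, j ≤ i → x j = y j) → act a x i = act a y i) →
      (∀ (a : ℤ_[p]) (x : Fin n → ℝ), act ((2 : ℤ_[p]) ^ n * a) x = x) ∧
        ∃ a : ℤ_[p], a ≠ 0 ∧ ∀ x : Fin n → ℝ, act a x = x) := by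
  refine ⟨fun act h0 hadd hcont a hlines => ?_, fun n act h0 hadd hcont htri => ?_⟩
  · have h1 : ∀ x, act (a + a) x = x := by
      intro x
      obtain ⟨γ, hγ, ⟨t, rfl⟩, hmaps⟩ := hlines x
      exact Vale.Agent.H61.P228.invariant_line_trivial p M act h0 hadd hcont a γ hγ hmaps t
    refine ⟨h1, fun hfaith => ?_⟩
    have h2 : a + a = 0 := hfaith (a + a) h1
    have h3 : (2 : ℤ_[p]) * a = 0 := by rw [two_mul]; exact h2
    rcases mul_eq_zero.mp h3 with h | h
    · exact absurd h two_ne_zero
    · exact h
  · have h1 := Vale.Agent.H61.P228.triangular_action_trivial p n act h0 hadd hcont htri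
    refine ⟨h1, (2 : ℤ_[p]) ^ n, pow_ne_zero n two_ne_zero, fun x => ?_⟩
    have h2 := h1 1 x
    rwa [mul_one] at h2

end Vale.Agent.Results.P228.C_CombinedActions
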